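import Vale.Agent.H59.CHFinal

/-!
# P219: rotationally symmetric case of the generalized Cartan-Hadamard conjecture, centered balls

For the rotationally symmetric metric `dr^2 + f(r)^2 g_{S^(n-1)}` (with `f 0 = 0`, `f' 0 = 1`)
the sectional curvature is at most `-b^2` on the ball of radius `r` about the pole exactly when
`f'' ≥ b^2 f` on `[0, r]`.  The geodesic ball of radius `r` about the pole has boundary area
`n ω_n f(r)^(n-1)` and volume `n ω_n ∫_0^r f^(n-1)`.  The theorem says that its boundary area is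
at least the boundary area of the model ball of the same volume, with equality exactly when
`f = sn_b` on `[0, r]`.
-/

namespace Vale.Agent.Results.P219.A_RotSymBall

open Vale.Agent.H59

theorem result (n : ℕ) (hn : 2 ≤ n) (b : ℝ) (r : ℝ) (hr : 0 < r)
    (f f' f'' : ℝ → ℝ)
    (hf : ∀ x ∈ Set.Icc 0 r, HasDerivAt f (f' x) x)
    (hf' : ∀ x ∈ Set.Icc 0 r, HasDerivAt f' (f'' x) x)
    (h0 : f 0 = 0) (h1 : f' 0 = 1)
    (hcurv : ∀ x ∈ Set.Icc 0 r, b ^ 2 * f x ≤ f'' x) :
    ∃ ρ : ℝ, 0 ≤ ρ ∧ (∀ ρ' : ℝ, 0 ≤ ρ' → (modelVol n b ρ' = warpVol n f r ↔ ρ' = ρ)) ∧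
      modelArea n b ρ ≤ warpArea n f r ∧
      (modelArea n b ρ = warpArea n f r ↔ ∀ x ∈ Set.Icc 0 r, f x = sn b x) :=
  rot_sym_ball n hn b r hr f f' f'' hf hf' h0 h1 hcurv

end Vale.Agent.Results.P219.A_RotSymBall
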